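import Crest.Agent.SF.CurveSeq

/-!
# Row 323: all solutions, neighbours (bridge to `Crest.Agent.SFC.Seq`)
-/

set_option autoImplicit false

namespace Crest.Agent.SF

private theorem mk_sol {D u v w : ℕ} (hD : 0 < D) (h1 : u ^ 2 + 5 * D ^ 2 = v ^ 2)
    (h2 : v ^ 2 + 5 * D ^ 2 = w ^ 2) (hc : Nat.Coprime D v) : SFC.Sol D u v w := by
  have hD2 : 0 < D ^ 2 := by positivity
  have hv : 0 < v := by
    rcases Nat.eq_zero_or_pos v with rfl | h
    · simp at h1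
      omega
    · exact h
  have hw : 0 < w := by
    rcases Nat.eq_zero_or_pos w with rfl | h
    · simp at h2
      omega
    · exact h
  have hu : 0 < u := by
    rcases Nat.eq_zero_or_pos u with rfl | h
    · exfalso
      have h1' : (((0 : ℕ) : ℤ)) ^ 2 + 5 * (D : ℤ) ^ 2 = (v : ℤ) ^ 2 := by exact_mod_cast h1
      have h2' : (v : ℤ) ^ 2 + 5 * (D : ℤ) ^ 2 = (w : ℤ) ^ 2 := by exact_mod_cast h2
      have hc' : IsCoprime (D : ℤ) (v : ℤ) := Nat.isCoprime_iff_coprime.2 hc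
      obtain ⟨-, -, h5⟩ := SFC.parity h1' h2' hc'
      have h6 : (5 : ℤ) ∣ (v : ℤ) ^ 2 := ⟨(D : ℤ) ^ 2, by rw [← h1']; push_cast; ring⟩
      have hp : Prime (5 : ℤ) := by norm_num
      have h7 : (5 : ℤ) ∣ (v : ℤ) := hp.dvd_of_dvd_pow h6
      have h8 : IsUnit (5 : ℤ) := h5.isUnit_of_dvd' h7 dvd_rfl
      rw [Int.isUnit_iff] at h8
      omega
    · exact h
  exact ⟨hD, hu, hv, hw, h1, h2, hc⟩

/-- Every solution in natural numbers with `D > 0` is `|n P1|`, `n ≥ 1`. -/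
theorem all_solutions {D u v w : ℕ} (hD : 0 < D) (h1 : u ^ 2 + 5 * D ^ 2 = v ^ 2)
    (h2 : v ^ 2 + 5 * D ^ 2 = w ^ 2) (hc : Nat.Coprime D v) :
    ∃ n, 1 ≤ n ∧ D = VD n ∧ u = Vu n ∧ v = VV n ∧ w = Vw n := by
  obtain ⟨n, hn, e⟩ := SFC.exhaust (mk_sol hD h1 h2 hc)
  refine ⟨n, hn, ?_, ?_, ?_, ?_⟩
  · unfold VD; rw [e]
  · unfold Vu; rw [e]
  · unfold VV; rw [e]
  · unfold Vw; rw [e]

/-- `Q'` is a neighbour of `Q` of larger height: for `Z = 1681 v² + 3600 D²` (the common denominator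
of `Q ± P1`), `|S(Q ± P1)| = |1519 D v ± 492 u w|/Z` (`1519 = 31·49`, `492 = 12·41`). -/
def Nb (D u v w D' u' v' w' : ℕ) : Prop :=
  v < v' ∧ 0 < D' ∧ Nat.Coprime D' v' ∧ u' ^ 2 + 5 * D' ^ 2 = v' ^ 2 ∧ v' ^ 2 + 5 * D' ^ 2 = w' ^ 2 ∧
    (D' * (1681 * v ^ 2 + 3600 * D ^ 2) = v' * (1519 * D * v + 492 * u * w) ∨
      (D' * (1681 * v ^ 2 + 3600 * D ^ 2) + v' * (492 * u * w) = v' * (1519 * D * v)) ∨
      (D' * (1681 * v ^ 2 + 3600 * D ^ 2) + v' * (1519 * D * v) = v' * (492 * u * w)))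

/-- `Nb |nP1| Q'` iff `Q' = |(n+1)P1|`. -/
theorem nb_iff (n : ℕ) (hn : 1 ≤ n) (D' u' v' w' : ℕ) :
    Nb (VD n) (Vu n) (VV n) (Vw n) D' u' v' w' ↔
      D' = VD (n + 1) ∧ u' = Vu (n + 1) ∧ v' = VV (n + 1) ∧ w' = Vw (n + 1) := by
  have key := SFC.next_iff hn D' u' v' w'
  have e : (D', u', v', w') = SFC.qs (n + 1) ↔
      D' = VD (n + 1) ∧ u' = Vu (n + 1) ∧ v' = VV (n + 1) ∧ w' = Vw (n + 1) := by
    unfold VD Vu VV Vw
    rw [Prod.ext_iff, Prod.ext_iff, Prod.ext_iff]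
  rw [← e, ← key]
  unfold Nb SFC.Next VD Vu VV Vw
  have hs := SFC.sol_qs hn
  generalize (SFC.qs n).1 = D at *
  generalize (SFC.qs n).2.1 = u at *
  generalize (SFC.qs n).2.2.1 = v at *
  generalize (SFC.qs n).2.2.2 = w at *
  constructor
  · rintro ⟨h1, h2, h3, h4, h5, h6⟩
    refine ⟨hs, mk_sol h2 h4 h5 h3, h1, ?_⟩
    rcases h6 with h6 | h6 | h6
    · left
      exact_mod_cast h6
    · right; left
      have h6' := congrArg (fun x : ℕ => (x : ℤ)) h6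
      push_cast at h6'
      linarith
    · right; right
      have h6' := congrArg (fun x : ℕ => (x : ℤ)) h6
      push_cast at h6'
      linarith
  · rintro ⟨-, h2, h1, h6⟩
    refine ⟨h1, h2.1, h2.2.2.2.2.2.2, h2.2.2.2.2.1, h2.2.2.2.2.2.1, ?_⟩
    rcases h6 with h6 | h6 | h6
    · left
      exact_mod_cast h6
    · right; left
      zify
      linarith
    · right; right
      zify
      linarith

end Crest.Agent.SF
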