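import Mathlib

/-!
# Chunk R323-CURVEINTA: elementary facts on `u² + 5D² = v²`, `v² + 5D² = w²`, `gcd(D, v) = 1`
-/

set_option autoImplicit false

namespace Crest.Agent.SF

theorem sol_even_aux : ∀ a b c d : ZMod 8, a ^ 2 + 5 * b ^ 2 = c ^ 2 → c ^ 2 + 5 * b ^ 2 = d ^ 2 →
    b.val % 2 = 0 := by
  decide +kernel

theorem coprime_prime_of_not_dvd {p x : ℤ} (hp : Prime p) (h : ¬ p ∣ x) : IsCoprime p x :=
  (Irreducible.coprime_iff_not_dvd hp.irreducible).2 h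

theorem isCoprime_add_mul_of {x y z t : ℤ} (h : IsCoprime x y) (e : z = y + x * t) :
    IsCoprime x z := by
  rw [e]
  exact IsCoprime.add_mul_left_right h t

/-- Parity and coprimality. `p ∣ u, p ∣ v` prime gives `p² ∣ 5D²`; if `p ≠ 5` then `p ∣ D`; if `p = 5`
then `25 ∣ 5D²`, `5 ∣ D`: in both cases `p ∣ gcd(D,v)`. Same for `w`. `5 ∣ v` gives `5 ∣ u²`, `5 ∣ u`,
`25 ∣ 5D²`, `5 ∣ D`, contradiction; `5 ∣ u` gives `5 ∣ v`. Parity: if `D` is odd then mod 8: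
`5D² ≡ 5`, `u² ≡ v² - 5`, `w² ≡ v² + 5`: `v` odd gives `w² ≡ 6` impossible; `v` even gives `v² ≡ 0, 4`,
`w² ≡ 5` or `1`, `u² ≡ 3` or `7`, impossible. So `D` is even, `v` is odd (coprime), `u, w` odd. -/
theorem sol_facts {D u v w : ℤ} (h1 : u ^ 2 + 5 * D ^ 2 = v ^ 2) (h2 : v ^ 2 + 5 * D ^ 2 = w ^ 2)
    (hc : IsCoprime D v) :
    Even D ∧ Odd v ∧ Odd u ∧ Odd w ∧ ¬ (5 : ℤ) ∣ v ∧ ¬ (5 : ℤ) ∣ u ∧ ¬ (5 : ℤ) ∣ w ∧
      IsCoprime u v ∧ IsCoprime w v ∧ IsCoprime u D ∧ IsCoprime w D ∧ IsCoprime u w := by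
  have hp5 : Prime (5 : ℤ) := Int.prime_iff_natAbs_prime.2 (by norm_num)
  have hp2 : Prime (2 : ℤ) := Int.prime_two
  have hD : Even D := by
    have g1 : ((u : ZMod 8)) ^ 2 + 5 * (D : ZMod 8) ^ 2 = (v : ZMod 8) ^ 2 := by
      exact_mod_cast congrArg (Int.cast : ℤ → ZMod 8) h1
    have g2 : ((v : ZMod 8)) ^ 2 + 5 * (D : ZMod 8) ^ 2 = (w : ZMod 8) ^ 2 := by
      exact_mod_cast congrArg (Int.cast : ℤ → ZMod 8) h2
    have g3 := sol_even_aux _ _ _ _ g1 g2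
    have g4 : (((D : ZMod 8).val : ℕ) : ℤ) = D % 8 := by
      exact_mod_cast ZMod.val_intCast (n := 8) D
    rw [Int.even_iff]
    omega
  have hv : Odd v := by
    rw [← Int.not_even_iff_odd]
    intro hv
    have := hc.isUnit_of_dvd' hD.two_dvd hv.two_dvd
    exact hp2.not_isUnit this
  have hu : Odd u := by
    rw [← Int.not_even_iff_odd]
    intro hu
    have : Even (v ^ 2) := by
      rw [← h1]
      exact (hu.pow_of_ne_zero (by norm_num)).add ((hD.pow_of_ne_zero (by norm_num)).mul_left 5)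
    exact (Int.not_even_iff_odd.2 hv.pow) this
  have hw : Odd w := by
    rw [← Int.not_even_iff_odd]
    intro hw
    have h3 : Even (w ^ 2 - 5 * D ^ 2) :=
      (hw.pow_of_ne_zero (by norm_num)).sub ((hD.pow_of_ne_zero (by norm_num)).mul_left 5)
    have h4 : w ^ 2 - 5 * D ^ 2 = v ^ 2 := by linarith
    rw [h4] at h3
    exact (Int.not_even_iff_odd.2 hv.pow) h3
  have key5 : ∀ x : ℤ, (5 : ℤ) ∣ x → (x ^ 2 + 5 * D ^ 2 = v ^ 2 ∨ v ^ 2 + 5 * D ^ 2 = x ^ 2) →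
      (5 : ℤ) ∣ v := by
    intro x hx h
    apply hp5.dvd_of_dvd_pow (n := 2)
    obtain ⟨k, rfl⟩ := hx
    rcases h with h | h
    · exact ⟨5 * k ^ 2 + D ^ 2, by linarith⟩
    · exact ⟨5 * k ^ 2 - D ^ 2, by linarith⟩
  have h5v : ¬ (5 : ℤ) ∣ v := by
    intro h5
    have h6 : (5 : ℤ) ∣ u := by
      apply hp5.dvd_of_dvd_pow (n := 2)
      obtain ⟨k, rfl⟩ := h5
      exact ⟨5 * k ^ 2 - D ^ 2, by linarith⟩
    have h7 : (5 : ℤ) ∣ D := by
      apply hp5.dvd_of_dvd_pow (n := 2)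
      obtain ⟨k, rfl⟩ := h5
      obtain ⟨l, rfl⟩ := h6
      exact ⟨k ^ 2 - l ^ 2, by linarith⟩
    exact hp5.not_isUnit (hc.isUnit_of_dvd' h7 h5)
  have h5u : ¬ (5 : ℤ) ∣ u := fun h => h5v (key5 u h (Or.inl h1))
  have h5w : ¬ (5 : ℤ) ∣ w := fun h => h5v (key5 w h (Or.inr h2))
  have c5v : IsCoprime (5 : ℤ) v := coprime_prime_of_not_dvd hp5 h5v
  have c5u : IsCoprime (5 : ℤ) u := coprime_prime_of_not_dvd hp5 h5u
  have c2u : IsCoprime (2 : ℤ) u := coprime_prime_of_not_dvd hp2 (fun h =>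
    (Int.not_even_iff_odd.2 hu) (even_iff_two_dvd.2 h))
  have cvD : IsCoprime v (5 * D ^ 2) := c5v.symm.mul_right hc.symm.pow_right
  have cuv : IsCoprime u v := by
    have : IsCoprime v (u ^ 2) := by
      have h3 : IsCoprime v (-(5 * D ^ 2)) := cvD.neg_right
      exact isCoprime_add_mul_of h3 (t := v) (by linarith)
    exact (IsCoprime.pow_right_iff (by norm_num)).1 this |>.symm
  have cwv : IsCoprime w v := by
    have : IsCoprime v (w ^ 2) := isCoprime_add_mul_of cvD (t := v) (by linarith)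
    exact (IsCoprime.pow_right_iff (by norm_num)).1 this |>.symm
  have cuD : IsCoprime u D := by
    have h3 : IsCoprime D (v ^ 2) := hc.pow_right
    have : IsCoprime D (u ^ 2) := isCoprime_add_mul_of h3 (t := -(5 * D)) (by linarith)
    exact (IsCoprime.pow_right_iff (by norm_num)).1 this |>.symm
  have cwD : IsCoprime w D := by
    have h3 : IsCoprime D (v ^ 2) := hc.pow_right
    have : IsCoprime D (w ^ 2) := isCoprime_add_mul_of h3 (t := 5 * D) (by linarith)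
    exact (IsCoprime.pow_right_iff (by norm_num)).1 this |>.symm
  have cuw : IsCoprime u w := by
    have h3 : IsCoprime u (2 * (5 * D ^ 2)) := c2u.symm.mul_right (c5u.symm.mul_right cuD.pow_right)
    have : IsCoprime u (w ^ 2) := isCoprime_add_mul_of h3 (t := u) (by linarith)
    exact (IsCoprime.pow_right_iff (by norm_num)).1 this
  exact ⟨hD, hv, hu, hw, h5v, h5u, h5w, cuv, cwv, cuD, cwD, cuw⟩

end Crest.Agent.SF
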