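import Crest.Agent.SFC.Seq

/-!
# Row 323: the multiples of `P1 = (12/41, 31/41, 49/41)` (bridge to `Crest.Agent.SFC.Seq`)
-/

set_option autoImplicit false

namespace Crest.Agent.SF

/-- the (natural number) coordinates of `|n P1|` -/
noncomputable def VD (n : ℕ) : ℕ := (SFC.qs n).1
noncomputable def Vu (n : ℕ) : ℕ := (SFC.qs n).2.1
noncomputable def VV (n : ℕ) : ℕ := (SFC.qs n).2.2.1
noncomputable def Vw (n : ℕ) : ℕ := (SFC.qs n).2.2.2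

theorem VV_pos (n : ℕ) : 1 ≤ VV n := SFC.vv_pos _

theorem VV_zero : VV 0 = 1 := SFC.vs_zero

theorem VV_one : VV 1 = 41 := SFC.vs_one

/-- natural number form of the equations -/
theorem V_eqs (n : ℕ) : Vu n ^ 2 + 5 * VD n ^ 2 = VV n ^ 2 ∧ VV n ^ 2 + 5 * VD n ^ 2 = Vw n ^ 2 ∧
    Nat.Coprime (VD n) (VV n) :=
  ⟨(SFC.UU_WW _).1, (SFC.UU_WW _).2, SFC.cop _⟩

theorem VV_upper (n : ℕ) : VV (n + 2) * VV n ≤ 2 * 41 ^ 2 * VV (n + 1) ^ 2 := by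
  have h := SFC.vs_upper n
  have e : 2 * 41 ^ 2 = 2 * 1681 := by norm_num
  rw [e]
  exact h

theorem VV_lower (n : ℕ) : VV (n + 1) ^ 4 * 41 ^ 4 ≤ 2 * VV (n + 2) ^ 2 * VV n ^ 2 := by
  have h := SFC.vs_lower n
  rw [mul_comm, mul_assoc]
  exact h

theorem VV_growth (n : ℕ) : 41 * VV n ≤ VV (n + 1) := by
  induction n with
  | zero => rw [VV_zero, VV_one]
  | succ n ih =>
    have h := VV_lower n
    have ha := VV_pos n
    have hb := VV_pos (n + 1)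
    by_contra hcon
    have hc : VV (n + 1 + 1) ≤ 41 * VV (n + 1) := (not_le.1 hcon).le
    have h1 : VV (n + 2) ^ 2 ≤ (41 * VV (n + 1)) ^ 2 := Nat.pow_le_pow_left hc 2
    have h2 : (41 * VV n) ^ 2 ≤ VV (n + 1) ^ 2 := Nat.pow_le_pow_left ih 2
    have h3 : 2 * VV (n + 2) ^ 2 * VV n ^ 2 ≤ 2 * (41 * VV (n + 1)) ^ 2 * VV n ^ 2 :=
      Nat.mul_le_mul_right _ (Nat.mul_le_mul_left _ h1)
    have h4 : 0 < VV (n + 1) ^ 2 := by positivity
    have h5 : VV (n + 1) ^ 2 * (VV (n + 1) ^ 2 * 41 ^ 4) ≤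
        VV (n + 1) ^ 2 * (2 * 41 ^ 2 * VV n ^ 2) := by
      calc VV (n + 1) ^ 2 * (VV (n + 1) ^ 2 * 41 ^ 4) = VV (n + 1) ^ 4 * 41 ^ 4 := by ring
        _ ≤ 2 * (41 * VV (n + 1)) ^ 2 * VV n ^ 2 := h.trans h3
        _ = VV (n + 1) ^ 2 * (2 * 41 ^ 2 * VV n ^ 2) := by ring
    have h6 := Nat.le_of_mul_le_mul_left h5 h4
    have h7 : 0 < VV n ^ 2 := by positivity
    nlinarith

theorem VV_strictMono : StrictMono VV :=
  strictMono_nat_of_lt_succ fun n => by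
    have := VV_growth n
    have := VV_pos n
    omega

theorem VD_pos (n : ℕ) (hn : 1 ≤ n) : 0 < VD n := (SFC.sol_qs hn).1

end Crest.Agent.SF
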