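import Crest.Agent.SF.CurveIntA

/-!
# Chunk R323-DESCA1
-/

set_option autoImplicit false

namespace Crest.Agent.SF

/-- the parametrisation for one parity -/
theorem desc_param_aux {a b v E : ℤ} (ha : 0 < a) (hb : 0 < b) (hv : 0 < v)
    (h : a ^ 2 + b ^ 2 = v ^ 2) (hab : a * b = 10 * E ^ 2) (hc : Int.gcd a b = 1) (hodd : a % 2 = 1) :
    ∃ m n : ℕ, 0 < n ∧ n < m ∧ Nat.Coprime m n ∧ (m + n) % 2 = 1 ∧
      v = (m : ℤ) ^ 2 + (n : ℤ) ^ 2 ∧ (m : ℤ) * n * (((m : ℤ) - n) * (m + n)) = 5 * E ^ 2 := by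
  have hP : PythagoreanTriple a b v := by
    unfold PythagoreanTriple; nlinarith
  obtain ⟨m, n, h1, h2, h3, h4, h5, h6⟩ := hP.coprime_classification' hc hodd hv
  have hmn : 0 < m * n := by nlinarith
  have hm : 0 < m := by
    rcases h6.lt_or_eq with h | h
    · exact h
    · rw [← h, zero_mul] at hmn; exact absurd hmn (lt_irrefl _)
  have hn : 0 < n := by
    by_contra hn
    have : m * n ≤ 0 := mul_nonpos_of_nonneg_of_nonpos hm.le (not_lt.1 hn)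
    linarith
  lift m to ℕ using hm.le
  lift n to ℕ using hn.le
  have hnm : (n : ℤ) < m := by nlinarith
  refine ⟨m, n, by exact_mod_cast hn, by exact_mod_cast hnm, ?_, by omega, h3, ?_⟩
  · have := h4
    rwa [Int.gcd_natCast_natCast] at this
  · rw [h1, h2] at hab
    nlinarith

/-- Pythagorean parametrisation. `u, v, w` odd, `D` even, `u, w` coprime (`sol_facts`). Put
`a = (w+u)/2`, `b = (w-u)/2`: `a² + b² = v²`, `a b = 5 D²/4`, coprime. By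
`PythagoreanTriple.coprime_classification'` (or `coprime_classification`): `{a, b} = {m²-n², 2mn}`,
`v = m² + n²`, `gcd(m,n) = 1`, opposite parity; signs can be changed so that `m, n > 0` and then `m > n`
since `ab > 0` (`u < w` as `D > 0`). `4 a b = 5 D² = 8 m n (m²-n²)`, i.e. `5 (D/2)² = m n (m - n)(m + n)`
with `D = 2 E`. -/
theorem desc_param {D u v w : ℕ} (hD : 0 < D) (h1 : u ^ 2 + 5 * D ^ 2 = v ^ 2)
    (h2 : v ^ 2 + 5 * D ^ 2 = w ^ 2) (hc : Nat.Coprime D v) :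
    ∃ m n E : ℕ, 0 < n ∧ n < m ∧ Nat.Coprime m n ∧ (m + n) % 2 = 1 ∧ D = 2 * E ∧
      v = m ^ 2 + n ^ 2 ∧ m * n * ((m - n) * (m + n)) = 5 * E ^ 2 := by
  have g1 : (u : ℤ) ^ 2 + 5 * (D : ℤ) ^ 2 = (v : ℤ) ^ 2 := by exact_mod_cast h1
  have g2 : (v : ℤ) ^ 2 + 5 * (D : ℤ) ^ 2 = (w : ℤ) ^ 2 := by exact_mod_cast h2
  have gc : IsCoprime (D : ℤ) (v : ℤ) := Nat.isCoprime_iff_coprime.2 hc
  obtain ⟨eD, oV, oU, oW, -, -, -, -, -, -, -, cUW⟩ := sol_facts g1 g2 gc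
  have hD' : (0 : ℤ) < D := by exact_mod_cast hD
  have hv0 : (0 : ℤ) < v := by
    rcases oV with ⟨k, hk⟩
    have : (0 : ℤ) ≤ v := Int.natCast_nonneg v
    omega
  have hu0 : (0 : ℤ) < u := by
    rcases oU with ⟨k, hk⟩
    have : (0 : ℤ) ≤ u := Int.natCast_nonneg u
    omega
  have hw0 : (0 : ℤ) ≤ w := Int.natCast_nonneg w
  have huw : (u : ℤ) < w := by nlinarith
  obtain ⟨E, hE⟩ := eD
  obtain ⟨p, hp⟩ := oU
  obtain ⟨q, hq⟩ := oW
  -- a = p + q + 1, b = q - p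
  have ha : 0 < p + q + 1 := by omega
  have hb : 0 < q - p := by omega
  have e1 : (p + q + 1) ^ 2 + (q - p) ^ 2 = (v : ℤ) ^ 2 := by
    rw [hp] at g1; rw [hq] at g2; nlinarith
  have e2 : (p + q + 1) * (q - p) = 10 * E ^ 2 := by
    rw [hp] at g1; rw [hq] at g2; rw [hE] at g1 g2; nlinarith
  have hcop : IsCoprime (p + q + 1) (q - p) := by
    obtain ⟨x, y, hxy⟩ := cUW
    refine ⟨x + y, y - x, ?_⟩
    rw [hp, hq] at hxy
    linarith
  have hgcd : Int.gcd (p + q + 1) (q - p) = 1 := Int.isCoprime_iff_gcd_eq_one.1 hcop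
  have hpar : (p + q + 1) % 2 = 1 ∨ (q - p) % 2 = 1 := by omega
  have key : ∃ m n : ℕ, 0 < n ∧ n < m ∧ Nat.Coprime m n ∧ (m + n) % 2 = 1 ∧
      (v : ℤ) = (m : ℤ) ^ 2 + (n : ℤ) ^ 2 ∧
      (m : ℤ) * n * (((m : ℤ) - n) * (m + n)) = 5 * E ^ 2 := by
    rcases hpar with h | h
    · exact desc_param_aux ha hb hv0 e1 e2 hgcd h
    · refine desc_param_aux hb ha hv0 (by linarith) (by linarith) ?_ h
      rw [Int.gcd_comm]; exact hgcd
  obtain ⟨m, n, hn, hnm, hmn, hpr, hv, hE2⟩ := key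
  have hE0 : 0 ≤ E := by omega
  lift E to ℕ using hE0
  refine ⟨m, n, E, hn, hnm, hmn, hpr, by omega, by exact_mod_cast hv, ?_⟩
  have h3 : ((m - n : ℕ) : ℤ) = (m : ℤ) - n := Nat.cast_sub hnm.le
  have h4 : ((m * n * ((m - n) * (m + n)) : ℕ) : ℤ) = ((5 * E ^ 2 : ℕ) : ℤ) := by
    push_cast [h3]
    exact hE2
  exact_mod_cast h4

end Crest.Agent.SF
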