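import Crest.Agent.SF.DescA0
import Crest.Agent.SF.DescA1

/-!
# Chunk R323-DESCA: arithmetic of the 2-descent
-/

set_option autoImplicit false

namespace Crest.Agent.SF

theorem descA_sq_split {a b c : ℕ} (h : a * b = c ^ 2) (hc : Nat.Coprime a b) :
    (∃ x, a = x ^ 2) ∧ (∃ y, b = y ^ 2) :=
  ⟨exists_eq_pow_of_mul_eq_pow (Nat.isUnit_iff.2 hc) h,
    exists_eq_pow_of_mul_eq_pow (Nat.isUnit_iff.2 hc.symm) (by rw [mul_comm]; exact h)⟩

theorem descA_z1 : ∀ r s q : ZMod 5, r ^ 2 = s ^ 2 → r ^ 2 + s ^ 2 = q ^ 2 → r = 0 ∧ s = 0 := by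
  decide

theorem descA_z2 : ∀ r s t : ZMod 5, r ^ 2 = s ^ 2 + t ^ 2 → r ^ 2 + s ^ 2 = 0 →
    r = 0 ∧ s = 0 := by
  decide

theorem descA_five {r s : ℕ} (hc : Nat.Coprime r s) (h : (r : ZMod 5) = 0 ∧ (s : ZMod 5) = 0) :
    False := by
  have h1 : 5 ∣ r := (ZMod.natCast_eq_zero_iff r 5).1 h.1
  have h2 : 5 ∣ s := (ZMod.natCast_eq_zero_iff s 5).1 h.2
  have h3 := Nat.dvd_gcd h1 h2
  rw [hc] at h3
  omega

/-- The 2-descent. From `desc_param`: `m, n, m-n, m+n` are pairwise coprime (odd `m ± n`), product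
`5E²`. Apply `five_split` three times (`(m n)·((m-n)(m+n))`, then each factor; for the factor without
the 5 use `Nat.sq_of_coprime`-type splitting of squares). Cases:
(1) `n = 5s²`, `m = r²`, `m-n = t²`, `m+n = q²`;
(2) `m = 5r²`, `n = s²`, `m-n = t²`, `m+n = q²`;
(3) `m-n = 5t²`, `m = r²`, `n = s²`, `m+n = q²`: then `r² ≡ s²`, `2r² ≡ q² mod 5`: squares mod 5 are
`0,1,4`, so `r ≡ 0`, `s ≡ 0 mod 5`, contradiction with coprimality;
(4) `m+n = 5q²`, `m = r²`, `n = s²`, `m-n = t²`: `s² ≡ -r²`, `t² ≡ 2r² mod 5`, the same contradiction.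
`E = s r t q` (in (1) `5 s² r² t² q² = 5 E²`; in (2) the same) so `D = 2 s r t q`;
`v = m² + n²`. -/
theorem descent_nat {D u v w : ℕ} (hD : 0 < D) (h1 : u ^ 2 + 5 * D ^ 2 = v ^ 2)
    (h2 : v ^ 2 + 5 * D ^ 2 = w ^ 2) (hc : Nat.Coprime D v) :
    (∃ s t r q : ℕ, 0 < s ∧ 0 < r ∧ Nat.Coprime s r ∧ t ^ 2 + 5 * s ^ 2 = r ^ 2 ∧
      r ^ 2 + 5 * s ^ 2 = q ^ 2 ∧ D = 2 * s * r * t * q ∧ v = r ^ 4 + 25 * s ^ 4) ∨
    (∃ s t r q : ℕ, 0 < s ∧ 0 < r ∧ t ^ 2 + s ^ 2 = 5 * r ^ 2 ∧
      5 * r ^ 2 + s ^ 2 = q ^ 2 ∧ D = 2 * s * r * t * q ∧ v = 25 * r ^ 4 + s ^ 4) := by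
  obtain ⟨m, n, E, hn, hnm, hmn, hodd, hDE, hv, hE⟩ := desc_param hD h1 h2 hc
  have hE0 : 0 < E := by omega
  obtain ⟨k, rfl⟩ : ∃ k, m = n + k := ⟨m - n, by omega⟩
  have hk0 : 0 < k := by omega
  rw [Nat.add_sub_cancel_left] at hE
  have hkodd : k % 2 = 1 := by omega
  have ckn : Nat.Coprime k n := Nat.coprime_self_add_left.1 hmn
  have c1 : Nat.Coprime (n + k) k := by
    rw [Nat.coprime_add_self_left]; exact ckn.symm
  have c2 : Nat.Coprime (n + k) (n + k + n) := by
    rw [Nat.coprime_self_add_right]; exact hmn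
  have c3 : Nat.Coprime n k := ckn.symm
  have c4 : Nat.Coprime n (n + k + n) := by
    rw [Nat.coprime_add_self_right]; exact hmn.symm
  have c5 : Nat.Coprime k (n + k + n) := by
    have e : n + k + n = 2 * n + k := by ring
    rw [e, Nat.coprime_add_self_right]
    refine Nat.Coprime.mul_right ?_ ckn
    exact Nat.coprime_two_right.2 (Nat.odd_iff.2 hkodd)
  have cbig : Nat.Coprime ((n + k) * n) (k * (n + k + n)) :=
    Nat.Coprime.mul_left (Nat.Coprime.mul_right c1 c2) (Nat.Coprime.mul_right c3 c4)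
  rcases five_split hE0 hE cbig with ⟨x, y, hx, hy⟩ | ⟨x, y, hx, hy⟩
  · have hx0 : 0 < x := by
      rcases Nat.eq_zero_or_pos x with rfl | h
      · have : 0 < (n + k) * n := by positivity
        rw [hx] at this
        simp at this
      · exact h
    obtain ⟨⟨t, ht⟩, ⟨q, hq⟩⟩ := descA_sq_split hy c5
    rcases five_split hx0 hx hmn with ⟨r, s, hr, hs⟩ | ⟨r, s, hr, hs⟩
    · -- m = 5 r², n = s²
      right
      have hs0 : 0 < s := by
        rcases Nat.eq_zero_or_pos s with rfl | h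
        · simp at hs; omega
        · exact h
      have hr0 : 0 < r := by
        rcases Nat.eq_zero_or_pos r with rfl | h
        · simp at hr; omega
        · exact h
      have hEq : E = s * r * t * q := by
        have h5 : 5 * E ^ 2 = 5 * (s * r * t * q) ^ 2 := by
          rw [← hE, hq, hr, ht, hs]; ring
        have h6 : E ^ 2 = (s * r * t * q) ^ 2 := by omega
        exact (Nat.pow_left_injective (by norm_num : (2 : ℕ) ≠ 0)) h6
      refine ⟨s, t, r, q, hs0, hr0, ?_, ?_, ?_, ?_⟩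
      · rw [← ht, ← hs, ← hr]; ring
      · rw [← hq, ← hs, ← hr]
      · rw [hDE, hEq]; ring
      · rw [hv, hr, hs]; ring
    · -- m = r², n = 5 s²
      left
      have hs0 : 0 < s := by
        rcases Nat.eq_zero_or_pos s with rfl | h
        · simp at hs; omega
        · exact h
      have hr0 : 0 < r := by
        rcases Nat.eq_zero_or_pos r with rfl | h
        · simp at hr; omega
        · exact h
      have hEq : E = s * r * t * q := by
        have h5 : 5 * E ^ 2 = 5 * (s * r * t * q) ^ 2 := by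
          rw [← hE, hq, hr, ht, hs]; ring
        have h6 : E ^ 2 = (s * r * t * q) ^ 2 := by omega
        exact (Nat.pow_left_injective (by norm_num : (2 : ℕ) ≠ 0)) h6
      refine ⟨s, t, r, q, hs0, hr0, ?_, ?_, ?_, ?_, ?_⟩
      · rw [hr, hs] at hmn
        have h7 : Nat.Coprime (r ^ 2) (s ^ 2) := Nat.Coprime.coprime_mul_left_right hmn
        have h8 : Nat.Coprime r s :=
          (Nat.coprime_pow_left_iff (by norm_num) r s).1
            ((Nat.coprime_pow_right_iff (by norm_num) (r ^ 2) s).1 h7)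
        exact h8.symm
      · rw [← ht, ← hs, ← hr]; ring
      · rw [← hq, ← hs, ← hr]
      · rw [hDE, hEq]; ring
      · rw [hv, hr, hs]; ring
  · exfalso
    have hy0 : 0 < y := by
      rcases Nat.eq_zero_or_pos y with rfl | h
      · have : 0 < k * (n + k + n) := by positivity
        rw [hy] at this
        simp at this
      · exact h
    obtain ⟨⟨r, hr⟩, ⟨s, hs⟩⟩ := descA_sq_split hx hmn
    have crs : Nat.Coprime r s := by
      rw [hr, hs] at hmn
      exact (Nat.coprime_pow_left_iff (by norm_num) r s).1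
            ((Nat.coprime_pow_right_iff (by norm_num) (r ^ 2) s).1 hmn)
    have h50 : (5 : ZMod 5) = 0 := by decide
    rcases five_split hy0 hy c5 with ⟨t, q, ht, hq⟩ | ⟨t, q, ht, hq⟩
    · refine descA_five crs (descA_z1 r s q ?_ ?_)
      · have e : r ^ 2 = s ^ 2 + 5 * t ^ 2 := by rw [← hr, ← hs, ← ht]
        have := congrArg (Nat.cast : ℕ → ZMod 5) e
        push_cast at this
        rw [h50, zero_mul, add_zero] at this
        exact this
      · have e : r ^ 2 + s ^ 2 = q ^ 2 := by rw [← hr, ← hs, ← hq]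
        have := congrArg (Nat.cast : ℕ → ZMod 5) e
        push_cast at this
        exact this
    · refine descA_five crs (descA_z2 r s t ?_ ?_)
      · have e : r ^ 2 = s ^ 2 + t ^ 2 := by rw [← hr, ← hs, ← ht]
        have := congrArg (Nat.cast : ℕ → ZMod 5) e
        push_cast at this
        exact this
      · have e : r ^ 2 + s ^ 2 = 5 * q ^ 2 := by rw [← hr, ← hs, ← hq]
        have := congrArg (Nat.cast : ℕ → ZMod 5) e
        push_cast at this
        rw [h50, zero_mul] at this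
        exact this

end Crest.Agent.SF
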