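import Mathlib

/-!
# Chunk R323-DESCA0
-/

set_option autoImplicit false

namespace Crest.Agent.SF

theorem descA0_sq_of_coprime {a b c : ℕ} (hc : Nat.Coprime a b) (h : a * b = c ^ 2) :
    ∃ x, a = x ^ 2 := by
  apply exists_eq_pow_of_mul_eq_pow (b := b) (c := c) _ h
  rw [Nat.isUnit_iff]
  exact hc

theorem descA0_five_split_aux {a b c : ℕ} (h : a * b = 5 * c ^ 2) (hc : Nat.Coprime a b) (h5 : 5 ∣ a) :
    ∃ x y, a = 5 * x ^ 2 ∧ b = y ^ 2 := by
  obtain ⟨a', rfl⟩ := h5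
  have h1 : a' * b = c ^ 2 := by
    have : 5 * (a' * b) = 5 * c ^ 2 := by rw [← h]; ring
    exact Nat.eq_of_mul_eq_mul_left (by norm_num) this
  have hc' : Nat.Coprime a' b := Nat.Coprime.coprime_mul_left hc
  obtain ⟨x, hx⟩ := descA0_sq_of_coprime hc' h1
  obtain ⟨y, hy⟩ := descA0_sq_of_coprime hc'.symm (by rw [mul_comm]; exact h1)
  exact ⟨x, y, by rw [hx], hy⟩

/-- `5 ∣ a b` so `5 ∣ a` or `5 ∣ b`; say `a = 5a'`: `a' b = c²` with `a', b` coprime, so both are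
squares (`Nat.sq_of_coprime` or `Nat.eq_sq_of_mul_eq_sq`...). `c > 0` excludes degenerate cases, but the
statement is also true for `c = 0` (then `{a, b} = {0, 1}`), prove it with the hypothesis. -/
theorem five_split {a b c : ℕ} (hpos : 0 < c) (h : a * b = 5 * c ^ 2) (hc : Nat.Coprime a b) :
    (∃ x y, a = 5 * x ^ 2 ∧ b = y ^ 2) ∨ (∃ x y, a = x ^ 2 ∧ b = 5 * y ^ 2) := by
  have h5 : 5 ∣ a * b := ⟨_, h⟩
  rcases (Nat.Prime.dvd_mul (by norm_num)).1 h5 with h5 | h5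
  · exact Or.inl (descA0_five_split_aux h hc h5)
  · obtain ⟨x, y, h1, h2⟩ := descA0_five_split_aux (by rw [mul_comm]; exact h) hc.symm h5
    exact Or.inr ⟨y, x, h2, h1⟩

end Crest.Agent.SF
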